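import Vale.Agent.P327.Main
import Vale.Agent.P327.Perm

open Vale.Agent.P327

/-- (1) Every injective self-map of the Turing degrees induced by a bi-uniformly `E₀`-invariant
homeomorphism of Cantor space is the identity; (2) in particular every automorphism of the partial
order of the Turing degrees induced by such a homeomorphism is the identity; (3) for a permutation
`f` of `ℕ`, the map `X ↦ X ∘ f` respects Turing equivalence if and only if `f` is computable. -/
theorem Vale.Agent.Results.P327.A0_Combined.result :
    (∀ F : (ℕ → Bool) ≃ₜ (ℕ → Bool), UnifE0 F → UnifE0 F.symm →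
      ∀ p : DT → DT, Function.Injective p → (∀ X : ℕ → Bool, p (deg X) = deg (F X)) →
        ∀ a : DT, p a = a) ∧
    (∀ F : (ℕ → Bool) ≃ₜ (ℕ → Bool), UnifE0 F → UnifE0 F.symm →
      ∀ p : DT ≃o DT, (∀ X : ℕ → Bool, p (deg X) = deg (F X)) →
        ∀ a : DT, p a = a) ∧
    (∀ f : Equiv.Perm ℕ,
      (∀ X Y : ℕ → Bool, TLe X Y → TLe Y X → TLe (fun n => X (f n)) (fun n => Y (f n))) ↔
        Computable f) :=
  ⟨fun F hF hF' p hinj hp => main_injective F hF hF' p hinj hp,
   fun F hF hF' p hp => main_injective F hF hF' p p.injective hp,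
   fun f => perm_computable_iff f⟩
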