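import Vale.Agent.P327.Main

open Vale.Agent.P327

/-- Every automorphism `p` of the partial order of the Turing degrees that is induced by a
homeomorphism `F` of Cantor space such that `F` and its inverse are uniformly `E₀`-invariant
is the identity. -/
theorem Vale.Agent.Results.P327.E0Homeo.result
    (F : (ℕ → Bool) ≃ₜ (ℕ → Bool)) (hF : UnifE0 F) (hF' : UnifE0 F.symm)
    (p : DT ≃o DT) (hp : ∀ X : ℕ → Bool, p (deg X) = deg (F X)) :
    ∀ a : DT, p a = a :=
  main_degrees F hF hF' p hp
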