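import Vale.Agent.P327.Perm

open Vale.Agent.P327

/-- For a permutation `f` of `ℕ`, the map `X ↦ X ∘ f` on subsets of `ℕ` respects Turing
equivalence if and only if `f` is computable. -/
theorem Vale.Agent.Results.P327.PermComputable.result (f : Equiv.Perm ℕ) :
    (∀ X Y : ℕ → Bool, TLe X Y → TLe Y X → TLe (fun n => X (f n)) (fun n => Y (f n))) ↔
      Computable f :=
  perm_computable_iff f
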